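import Vale.Agent.P207.N3.H306.MetI
import Vale.Agent.P207.N3.H722.Lab
import Vale.Agent.P207.N3.H473.Link

/-!
# P207, line N3: the instance of `LinkIn` (H473) from the geometry (`GeoIn`, `HessIn` of H722)

`linkIn`: for the disc of a frame `x₀`, labels `ξ`, `η` and `u y t = b (ξ y) (D t)`,
`s x t = b (η x) (D t)`.
-/

open Set Filter Topology Metric
open scoped ContDiff RealInnerProductSpace

set_option linter.unusedSectionVars false

noncomputable section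

namespace Vale.Agent.P207.N3.H306

open Vale.Agent.P207.N3.H76 (pk tl e0 sg)
open Vale.Agent.P207.N3.H722 (GeoIn HessIn)
open Vale.Agent.P207.N3.Ten (hor pt pt_spec cj Sf ball_sub)

variable {Γ X B : Type} [Group Γ] [MetricSpace X] [ProperSpace X] [MulAction Γ X]
  [IsIsometricSMul Γ X] [TopologicalSpace B] [CompactSpace B] [T2Space B] [MulAction Γ B]
  [ContinuousConstSMul Γ B] {L : Leaf Γ X B} {V : Type} [NormedAddCommGroup V] [NormedSpace ℝ V]
  [FiniteDimensional ℝ V] (I : GeoIn L V)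

/-! ### the horospheres -/

theorem hor_eq_Ir (x : X) (r : ℝ) {u : E2} (hu : u ∈ ball (0 : E2) 3) :
    hor L (x, r) u = Ir I x (r, u) := by
  have h := pt_spec (L := L) x (ball_sub hu)
  rw [Ir_eq I (z := L.φ r (pt L x u)) (by rw [L.em_φ, h.em]) (by rw [L.lv_φ, h.lv]) hu
    (by rw [Ten.ep_φ, h.ep])]
  rfl

include I in
theorem hor_smooth (x : X) :
    ContDiffOn ℝ ∞ (fun p : ℝ × E2 => hor L (x, p.1) p.2) (univ ×ˢ ball 0 3) :=
  (Ir_smooth I x).congr fun p hp => hor_eq_Ir I x p.1 hp.2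

/-! ### frames over the points of the disc -/

/-- a frame at `q` on the geodesic which comes from `ξ` -/
def zf (ξ : B) (q : V) : X := Classical.choose (I.exists_frame ξ q)

theorem em_zf (ξ : B) (q : V) : L.em (zf I ξ q) = ξ := (Classical.choose_spec (I.exists_frame ξ q)).1

theorem ft_zf (ξ : B) (q : V) : I.S.ft (zf I ξ q) = q :=
  (Classical.choose_spec (I.exists_frame ξ q)).2.1

theorem ep_zf (ξ : B) (q : V) : L.ep (zf I ξ q) = I.S.line ξ q :=
  (Classical.choose_spec (I.exists_frame ξ q)).2.2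

theorem lv_zf (ξ : B) (q : V) : L.lv (zf I ξ q) = I.b ξ q := by
  rw [← I.b_lv, em_zf, ft_zf]

/-- the transition from the frames over the disc of `x₀` to a fixed one of them -/
theorem local_tau (x₀ : X) (ξ : B) {t₀ : E2} (ht : t₀ ∈ ball (0 : E2) I.S.R) :
    ∃ g : E2 → ℝ × E2, SG g t₀ ∧ g t₀ = 0 ∧
      (∀ᶠ t in 𝓝 t₀, I.S.A (zf I ξ (I.D x₀ t₀)) (g t) = I.D x₀ t) ∧
      ∀ᶠ t in 𝓝 t₀, L.τ (zf I ξ (I.D x₀ t)) (zf I ξ (I.D x₀ t₀)) 0 = (g t).2 := by
  set z := zf I ξ (I.D x₀ t₀) with hz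
  have hz0 : I.S.A z (0, 0) = I.S.A x₀ (0, t₀) := by
    have h1 : I.S.A z (0, 0) = I.S.ft z := I.S.A_zero z
    rw [h1, hz, ft_zf]
    rfl
  obtain ⟨T, G, h1, h2, h3, h4⟩ := I.S.cross H459.invThm (x₀ := x₀) (y₀ := z) (u₀ := t₀) ht
    (s₀ := 0) I.S.zero_mem hz0
  have h3' : G (x₀, z) t₀ = 0 := h3
  have e1 : ∀ᶠ t in 𝓝 t₀, ((x₀, z), t) ∈ T := (isOpen_slice h1.isOpen (x₀, z)).mem_nhds h2
  have e2 : ∀ᶠ t in 𝓝 t₀, (G (x₀, z) t).2 ∈ ball (0 : E2) 3 := by
    have h5 : ContinuousAt (fun v => (G (x₀, z) v).2) t₀ :=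
      (h1.differentiableAt h2).continuousAt.snd
    refine h5.eventually (isOpen_ball.mem_nhds ?_)
    change (G (x₀, z) t₀).2 ∈ ball (0 : E2) 3
    rw [h3']
    exact mem_ball_self (by norm_num)
  refine ⟨G (x₀, z), ?_, h3', ?_, ?_⟩
  · filter_upwards [e1] with t h5
    exact h1.contDiffAt h5
  · filter_upwards [e1] with t h5
    exact (h4 _ h5).2.2
  · filter_upwards [e1, e2] with t h5 h6
    have h7 : I.S.A z (G (x₀, z) t) = I.D x₀ t := (h4 _ h5).2.2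
    set z' := zf I ξ (I.D x₀ t) with hz'
    have h8 : L.e z' 0 = L.e z (G (x₀, z) t).2 := by
      rw [L.e_zero, hz', ep_zf, ← I.e_eq z _ (ball_subset_closedBall h6)]
      change I.S.line ξ (I.D x₀ t) = I.S.line (I.S.em z) (I.S.A z (0, (G (x₀, z) t).2))
      rw [I.em_eq, hz, em_zf, eq_comm, I.S.line_iff]
      refine ⟨(G (x₀, z) t).1, ?_⟩
      have h9 := I.S.A_psi z (G (x₀, z) t).1 (G (x₀, z) t).2 (mem3 I h6)
      rw [Prod.mk.eta, h7, I.em_eq, hz, em_zf] at h9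
      exact h9
    have h10 : L.τ z' z 0 = Function.invFunOn (L.e z) (closedBall (0 : E2) 3) (L.e z' 0) := rfl
    rw [h10, h8]
    exact (L.e_inj z).leftInvOn_invFunOn (ball_subset_closedBall h6)

/-- the derivative of the transition -/
theorem local_tau_deriv (x₀ : X) (ξ : B) {t₀ : E2} (ht : t₀ ∈ ball (0 : E2) I.S.R) (v : E2) :
    ∃ c, I.E (zf I ξ (I.D x₀ t₀)) (pk c (I.r₀ • fderiv ℝ
      (fun t => L.τ (zf I ξ (I.D x₀ t)) (zf I ξ (I.D x₀ t₀)) 0) t₀ v)) = I.J x₀ t₀ v := by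
  obtain ⟨g, h1, h2, h3, h4⟩ := local_tau I x₀ ξ ht
  set z := zf I ξ (I.D x₀ t₀) with hz
  have hgd : DifferentiableAt ℝ g t₀ := h1.at.differentiableAt (by simp)
  have hτ : fderiv ℝ (fun t => L.τ (zf I ξ (I.D x₀ t)) z 0) t₀ =
      (ContinuousLinearMap.snd ℝ ℝ E2) ∘L fderiv ℝ g t₀ := by
    rw [Filter.EventuallyEq.fderiv_eq h4]
    exact (hgd.hasFDerivAt.snd).fderiv
  have hA : HasFDerivAt (I.S.A z) (fderiv ℝ (I.S.A z) 0) (g t₀) := by
    rw [h2]
    exact (I.S.A_jc.differentiableAt (I.S.mem_S z 0 I.S.zero_mem)).hasFDerivAt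
  have d1 := hA.comp t₀ hgd.hasFDerivAt
  have d2 : HasFDerivAt (I.D x₀) (I.J x₀ t₀) t₀ := (I.D_diffAt x₀ ht).hasFDerivAt
  have h5 : (I.S.A z ∘ g) =ᶠ[𝓝 t₀] I.D x₀ := h3
  have d3 := (d1.congr_of_eventuallyEq h5.symm).unique d2
  refine ⟨(fderiv ℝ g t₀ v).1, ?_⟩
  rw [hτ, ← d3]
  exact (I.A_fderiv z _ _).symm

/-! ### the second derivative of `b_ξ + b_η` -/

theorem b_smooth (ξ : B) : ContDiff ℝ ∞ (I.b ξ) := by
  rw [contDiff_iff_contDiffAt]
  intro q
  exact I.b_jc.contDiffAt (p := (ξ, q)) (mem_univ _)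

variable {M : Metr L} (H : HessIn I M)

/-- the sum of the two Busemann functions of the geodesic of `z` -/
def FF (z : X) (q : V) : ℝ := I.b (L.em z) q + I.b (L.ep z) q

theorem FF_smooth (z : X) : ContDiff ℝ ∞ (FF I z) := (b_smooth I _).add (b_smooth I _)

theorem fderiv_FF (z : X) (s : ℝ) : fderiv ℝ (FF I z) (I.S.ft (L.φ s z)) = 0 := by
  have h1 : HasFDerivAt (FF I z) (I.G (I.S.ft (L.φ s z)) (I.vel (L.em z) (I.S.ft (L.φ s z))) +
      I.G (I.S.ft (L.φ s z)) (I.vel (L.ep z) (I.S.ft (L.φ s z)))) (I.S.ft (L.φ s z)) :=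
    (I.b_hasFDerivAt H459.invThm _ _).add (I.b_hasFDerivAt H459.invThm _ _)
  rw [h1.fderiv]
  have h2 : L.ep z = I.S.line (L.em z) (I.S.ft (L.φ s z)) := by
    rw [← L.em_φ s z, I.line_eq, Ten.ep_φ]
  rw [h2, I.vel_line H459.invThm, map_neg, add_neg_cancel]

theorem hess_e0 (z : X) : fderiv ℝ (fderiv ℝ (FF I z)) (I.S.ft z) (I.E z e0) = 0 := by
  have hd : DifferentiableAt ℝ (fderiv ℝ (FF I z)) (I.S.ft z) :=
    (((FF_smooth I z).fderiv_right (m := ∞) (by simp)).differentiable (by simp)) _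
  have h1 : HasDerivAt (fun s => I.S.ft (L.φ s z)) (I.E z e0) 0 := by
    have h2 := I.hasDerivAt_ft z 0
    rwa [L.φ_zero] at h2
  have h3 : HasFDerivAt (fderiv ℝ (FF I z)) (fderiv ℝ (fderiv ℝ (FF I z)) (I.S.ft z))
      (I.S.ft (L.φ 0 z)) := by
    rw [L.φ_zero]
    exact hd.hasFDerivAt
  have h4 := h3.comp_hasDerivAt (0 : ℝ) h1
  have h5 : (fderiv ℝ (FF I z) ∘ fun s => I.S.ft (L.φ s z)) = fun _ => 0 := by
    funext s
    exact fderiv_FF I z s
  rw [h5] at h4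
  exact h4.unique (hasDerivAt_const _ _)

theorem hess_symm' (z : X) (v w : V) : fderiv ℝ (fderiv ℝ (FF I z)) (I.S.ft z) v w =
    fderiv ℝ (fderiv ℝ (FF I z)) (I.S.ft z) w v := by
  have h1 : ContDiffAt ℝ 2 (FF I z) (I.S.ft z) :=
    (FF_smooth I z).contDiffAt.of_le (by norm_cast)
  exact (h1.isSymmSndFDerivAt (by simp)).eq v w

include H in
theorem hess_FF (z : X) (a b : ℝ) (v w : E2) :
    fderiv ℝ (fderiv ℝ (FF I z)) (I.S.ft z) (I.E z (pk a v)) (I.E z (pk b w)) =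
      ⟪Sf M z v, w⟫ := by
  have e : ∀ (a : ℝ) (v : E2), I.E z (pk a v) = a • I.E z e0 + I.E z (pk 0 v) := by
    intro a v
    rw [← map_smul, ← map_add]
    congr 1
    rw [← H76.pk_zero_right, ← H76.pk_add, add_zero, zero_add]
  have h0 : ∀ u, fderiv ℝ (fderiv ℝ (FF I z)) (I.S.ft z) u (I.E z e0) = 0 := by
    intro u
    rw [hess_symm', hess_e0]
    rfl
  rw [e a v, e b w]
  simp only [map_add, map_smul, add_apply, smul_apply, smul_eq_mul, h0, hess_e0, zero_apply,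
    mul_zero, add_zero, zero_add]
  exact H.hess z v w

/-- second derivative of `(b_ξ + b_η) ∘ D` at a critical point -/
theorem hess_disc (x₀ : X) (z : X) {t₀ : E2} (ht : t₀ ∈ ball (0 : E2) I.S.R)
    (hft : I.S.ft z = I.D x₀ t₀) (v w : E2) :
    fderiv ℝ (fderiv ℝ (fun t => FF I z (I.D x₀ t))) t₀ v w =
      fderiv ℝ (fderiv ℝ (FF I z)) (I.S.ft z) (I.J x₀ t₀ v) (I.J x₀ t₀ w) := by
  have h1 : ∀ᶠ t in 𝓝 t₀, fderiv ℝ (fun t => FF I z (I.D x₀ t)) t =
      (fderiv ℝ (FF I z) (I.D x₀ t)) ∘L I.J x₀ t := by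
    filter_upwards [isOpen_ball.mem_nhds ht] with t h2
    have h3 : DifferentiableAt ℝ (FF I z) (I.D x₀ t) :=
      ((FF_smooth I z).differentiable (by simp)) _
    exact (h3.hasFDerivAt.comp t (I.D_diffAt x₀ h2).hasFDerivAt).fderiv
  rw [Filter.EventuallyEq.fderiv_eq h1]
  have h4 : HasFDerivAt (fun t => fderiv ℝ (FF I z) (I.D x₀ t))
      (fderiv ℝ (fderiv ℝ (FF I z)) (I.D x₀ t₀) ∘L I.J x₀ t₀) t₀ := by
    have h5 : DifferentiableAt ℝ (fderiv ℝ (FF I z)) (I.D x₀ t₀) :=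
      (((FF_smooth I z).fderiv_right (m := ∞) (by simp)).differentiable (by simp)) _
    exact h5.hasFDerivAt.comp t₀ (I.D_diffAt x₀ ht).hasFDerivAt
  have h6 : HasFDerivAt (I.J x₀) (fderiv ℝ (I.J x₀) t₀) t₀ :=
    (((I.J_smooth x₀).contDiffAt (isOpen_ball.mem_nhds ht)).differentiableAt (by simp)).hasFDerivAt
  have h7 := (h4.clm_comp h6).fderiv
  rw [h7]
  have h8 : fderiv ℝ (FF I z) (I.D x₀ t₀) = 0 := by
    have h9 := fderiv_FF I z 0
    rwa [L.φ_zero, hft] at h9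
  rw [hft]
  simp only [add_apply, ContinuousLinearMap.comp_apply, ContinuousLinearMap.compL_apply,
    ContinuousLinearMap.flip_apply, h8]
  simp

theorem inner_hess {f : E2 → ℝ} {q : E2} (hf : ContDiffAt ℝ 2 f q) (v w : E2) :
    ⟪hess f q v, w⟫ = fderiv ℝ (fderiv ℝ f) q v w := by
  have hd : DifferentiableAt ℝ (fderiv ℝ f) q :=
    (hf.fderiv_right (m := 1) (by norm_num)).differentiableAt (by norm_num)
  have h2 : HasFDerivAt (gradient f) (H473.rz ∘L fderiv ℝ (fderiv ℝ f) q) q := by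
    rw [H473.gradient_eq_rz]
    exact H473.rz.hasFDerivAt.comp q hd.hasFDerivAt
  unfold hess
  rw [h2.fderiv]
  exact H473.inner_rz _ _

theorem b_D_smooth (x₀ : X) (ξ : B) {t : E2} (ht : t ∈ ball (0 : E2) I.S.R) :
    ContDiffAt ℝ 2 (fun t => I.b ξ (I.D x₀ t)) t := by
  have h1 : ContDiffAt ℝ ∞ (fun t => I.b ξ (I.D x₀ t)) t :=
    (b_smooth I ξ).contDiffAt.comp t (I.D_smoothAt x₀ ht)
  exact h1.of_le (by norm_cast)

include H in
/-- the sum of the Hessians of the two functions on the disc -/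
theorem hess_sum (x₀ : X) (ξ η : B) {t₀ : E2} (ht : t₀ ∈ ball (0 : E2) I.S.R)
    (hη : I.S.line ξ (I.D x₀ t₀) = η) (v v' : E2) :
    ⟪(hess (fun t => I.b ξ (I.D x₀ t)) t₀ + hess (fun t => I.b η (I.D x₀ t)) t₀) v, v'⟫ =
      I.r₀ ^ 2 * ⟪Sf M (zf I ξ (I.D x₀ t₀)) (fderiv ℝ
        (fun t => L.τ (zf I ξ (I.D x₀ t)) (zf I ξ (I.D x₀ t₀)) 0) t₀ v),
        fderiv ℝ (fun t => L.τ (zf I ξ (I.D x₀ t)) (zf I ξ (I.D x₀ t₀)) 0) t₀ v'⟫ := by
  set z := zf I ξ (I.D x₀ t₀) with hz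
  have hft : I.S.ft z = I.D x₀ t₀ := ft_zf I _ _
  have h1 : (fun t => FF I z (I.D x₀ t)) =
      (fun t => I.b ξ (I.D x₀ t)) + fun t => I.b η (I.D x₀ t) := by
    funext t
    change I.b (L.em z) (I.D x₀ t) + I.b (L.ep z) (I.D x₀ t) = _
    rw [hz, em_zf, ep_zf, hη]
    rfl
  have c1 := b_D_smooth I x₀ ξ ht
  have c2 := b_D_smooth I x₀ η ht
  have h2 : fderiv ℝ (fderiv ℝ (fun t => FF I z (I.D x₀ t))) t₀ v v' =
      ⟪(hess (fun t => I.b ξ (I.D x₀ t)) t₀ + hess (fun t => I.b η (I.D x₀ t)) t₀) v, v'⟫ := by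
    rw [add_apply, inner_add_left, inner_hess c1, inner_hess c2, h1]
    have e1 : ∀ᶠ t in 𝓝 t₀, fderiv ℝ ((fun t => I.b ξ (I.D x₀ t)) + fun t => I.b η (I.D x₀ t)) t =
        (fderiv ℝ (fun t => I.b ξ (I.D x₀ t)) + fderiv ℝ (fun t => I.b η (I.D x₀ t))) t := by
      filter_upwards [isOpen_ball.mem_nhds ht] with t h3
      exact fderiv_add ((b_D_smooth I x₀ ξ h3).differentiableAt (by norm_num))
        ((b_D_smooth I x₀ η h3).differentiableAt (by norm_num))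
    have d1 := (c1.fderiv_right (m := 1) (by norm_num)).differentiableAt (by norm_num)
    have d2 := (c2.fderiv_right (m := 1) (by norm_num)).differentiableAt (by norm_num)
    rw [Filter.EventuallyEq.fderiv_eq e1, fderiv_add d1 d2]
    rfl
  rw [← h2, hess_disc I x₀ z ht hft]
  obtain ⟨c, hc⟩ := local_tau_deriv I x₀ ξ ht v
  obtain ⟨c', hc'⟩ := local_tau_deriv I x₀ ξ ht v'
  rw [← hc, ← hc', hess_FF I H, map_smul, inner_smul_left, inner_smul_right]
  simp only [conj_trivial]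
  ring

/-- **The instance of `LinkIn`** for two families of labels of the disc of `x₀`. -/
def linkIn (x₀ : X) (ξ η : E2 → B) (xh : E2 × E2 → E2)
    (hline : ∀ᶠ w in 𝓝 (0 : E2 × E2), I.S.line (ξ w.1) (I.D x₀ w.2) =
      η (xh (lf (fun y t => I.b (ξ y) (I.D x₀ t)) w))) :
    H473.LinkIn L M (fun y t => I.b (ξ y) (I.D x₀ t)) (fun x t => I.b (η x) (I.D x₀ t)) xh where
  ξ := ξ
  η := η
  z w := zf I (ξ w.1) (I.D x₀ w.2)
  c _ := 0
  r0 := I.r₀
  r0_pos := I.r₀_pos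
  em_z := Eventually.of_forall fun w => em_zf I _ _
  ep_z := by
    filter_upwards [hline] with w hw
    rw [ep_zf, hw]
  lv_z := Eventually.of_forall fun w => by rw [lv_zf, add_zero]
  ep_cont := by
    filter_upwards [I.ev_ball] with w hw
    have h1 : (fun t => L.ep (zf I (ξ w.1) (I.D x₀ t))) = fun t => I.S.line (ξ w.1) (I.D x₀ t) :=
      funext fun t => ep_zf I _ _
    have h2 : ContinuousAt (I.D x₀) w.2 := (I.D_smoothAt x₀ hw).continuousAt
    change ContinuousAt (fun t => L.ep (zf I (ξ w.1) (I.D x₀ t))) w.2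
    rw [h1]
    exact ContinuousAt.comp (g := fun q : V => I.S.line (ξ w.1) q)
      (I.S.line_cont.comp (Continuous.prodMk_right (ξ w.1))).continuousAt h2
  psi := by
    filter_upwards [I.ev_ball] with w hw
    obtain ⟨g, h1, -, -, h4⟩ := local_tau I x₀ (ξ w.1) hw
    change ∀ᶠ t in 𝓝 w.2, ContDiffAt ℝ ∞ (fun t => L.τ (zf I (ξ w.1) (I.D x₀ t))
      (zf I (ξ w.1) (I.D x₀ w.2)) 0) t
    filter_upwards [h1, h4.eventually_nhds] with t h5 h6
    exact h5.snd.congr_of_eventuallyEq h6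
  hess_z := by
    filter_upwards [I.ev_ball, hline] with w hw hl v v'
    exact hess_sum I H x₀ (ξ w.1) _ hw hl v v'
  hor_smooth := hor_smooth I

/-! ### the labels of a closed orbit -/

variable (o : Orb L) (n : Nor L o) (n' : Nor L o.flip) (A : E2 ≃L[ℝ] E2)

theorem line_xip : ∀ᶠ w in 𝓝 (0 : E2 × E2),
    I.S.line (GeoIn.xip o n' A w.1) (I.D o.x w.2) = n.inv (I.xh o n (lf (I.uu o n' A) w)) := by
  filter_upwards [(I.lf_tendsto o n' A).eventually (I.inv_xh o n), I.vv_lf o n' A] with w h1 h2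
  rw [h1, h2]
  change _ = I.xi (I.D o.x w.2, -I.vel (GeoIn.xip o n' A w.1) (I.D o.x w.2))
  rw [← I.vel_line H459.invThm, I.xi_vel]

theorem line_inv : ∀ᶠ w in 𝓝 (0 : E2 × E2),
    I.S.line (n.inv w.1) (I.D o.x w.2) = GeoIn.xip o n' A (I.yh o n' A (lf' (I.ss o n) w)) := by
  filter_upwards [(I.lf'_tendsto o n).eventually (I.xip_yh o n' A), I.vv_lf' o n] with w h1 h2
  rw [h1, h2]
  change _ = I.xi (I.D o.x w.2, -I.vel (n.inv w.1) (I.D o.x w.2))
  rw [← I.vel_line H459.invThm, I.xi_vel]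

/-- the unstable side: `u` the functions of the leaves, `xh` the label of the stable leaf -/
def linkU : H473.LinkIn L M (I.uu o n' A) (I.ss o n) (I.xh o n) :=
  linkIn I H o.x (GeoIn.xip o n' A) n.inv (I.xh o n) (line_xip I o n n' A)

/-- the stable side -/
def linkS : H473.LinkIn L M (I.ss o n) (I.uu o n' A) (fun z => I.yh o n' A (z.1, -z.2)) :=
  linkIn I H o.x n.inv (GeoIn.xip o n' A) (fun z => I.yh o n' A (z.1, -z.2))
    (line_inv I o n n' A)

theorem linkU_ξ : (linkU I H o n n' A).ξ = GeoIn.xip o n' A := rfl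

theorem linkU_η : (linkU I H o n n' A).η = n.inv := rfl

theorem linkU_r0 : (linkU I H o n n' A).r0 = I.r₀ := rfl

theorem linkU_z (w : E2 × E2) :
    (linkU I H o n n' A).z w = zf I (GeoIn.xip o n' A w.1) (I.D o.x w.2) := rfl

theorem linkS_ξ : (linkS I H o n n' A).ξ = n.inv := rfl

theorem linkS_η : (linkS I H o n n' A).η = GeoIn.xip o n' A := rfl

theorem linkS_r0 : (linkS I H o n n' A).r0 = I.r₀ := rfl

theorem linkS_z (w : E2 × E2) :
    (linkS I H o n n' A).z w = zf I (n.inv w.1) (I.D o.x w.2) := rfl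

end Vale.Agent.P207.N3.H306
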